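import Mathlib
import Crest.Prelude.Def_AsymptoticConvexity
import Crest.Prelude.Def_TreePotentials

/-!
Row 125 (S0166-S0169): shared definitions of the team project (owner: helper5).

The witness for S0166 is the `ℓ²`-sum of the finite-height subspaces `G n` of the global
tree-potential model: `G n` is the closed span of the coordinate vectors of the vertices of
length at most `n`.
-/

set_option autoImplicit false

namespace Crest.Agent.Row125

open Crest.AnalysisR Crest.AnalysisR.TreePotential

/-- the ambient space of model `m`: bounded real functions on the test set -/
abbrev Amb (m : PotentialModel) : Type := lp (fun _ : PotentialTest m => ℝ) ⊤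

/-- reflexivity of a real normed space (surjectivity of the canonical map into the bidual) -/
def Reflexive (X : Type*) [NormedAddCommGroup X] [NormedSpace ℝ X] : Prop :=
  Function.Surjective (NormedSpace.inclusionInDoubleDual ℝ X)

/-- finite-height global model: the closed span of the coordinate vectors of the vertices of
length at most `n`, inside the ambient space of the global model. -/
noncomputable def G (n : ℕ) : Submodule ℝ (Amb .global) :=
  (Submodule.span ℝ (coordVector .global '' {s : List ℕ | s.length ≤ n})).topologicalClosure

instance instCompleteG (n : ℕ) : CompleteSpace (G n) :=
  (Submodule.isClosed_topologicalClosure _).completeSpace_coe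

/-- the underlying type of the witness of S0166: the `ℓ²`-sum of the spaces `G n`. -/
abbrev WitnessSpace : Type := lp (fun n : ℕ => G n) 2

/-- the witness of S0166 as a `RealBanach` record. -/
noncomputable def witness : RealBanach :=
  ⟨WitnessSpace, inferInstance, inferInstance, inferInstance⟩

end Crest.Agent.Row125
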